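import Mathlib

/-!
Exchange machinery for common bases of two matroids, used by the P317 hand-ins.
-/

namespace Vale.Agent.Lib.P317

open Set

variable {α : Type*}

/-- Reverse basis exchange: an element of `B'` can be brought into `B`. -/
lemma rev_exchange {M : Matroid α} {B B' : Set α} (hB : M.IsBase B) (hB' : M.IsBase B')
    {y : α} (hy : y ∈ B' \ B) :
    ∃ x ∈ B \ B', M.IsBase (insert y (B \ {x})) := by
  have hyE : y ∈ M.E := hB'.subset_ground hy.1
  have hC : M.IsCircuit (M.fundCircuit y B) := hB.fundCircuit_isCircuit hyE hy.2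
  have hnot : ¬ (M.fundCircuit y B ⊆ B') := fun h => hC.dep.not_indep (hB'.indep.subset h)
  obtain ⟨x, hxC, hxB'⟩ := not_subset.1 hnot
  have hxy : x ≠ y := fun h => hxB' (h ▸ hy.1)
  have hxB : x ∈ B := by
    have := M.fundCircuit_subset_insert y B hxC
    rcases this with h | h
    · exact absurd h hxy
    · exact h
  refine ⟨x, ⟨hxB, hxB'⟩, ?_⟩
  have hcl : y ∈ M.closure B := by rw [hB.closure_eq]; exact hyE
  have hind : M.Indep (insert y B \ {x}) := (hB.indep.mem_fundCircuit_iff hcl hy.2).1 hxC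
  have := hB.exchange_isBase_of_indep' hxB hy.2 hind
  rwa [← insert_sdiff_singleton_comm hxy.symm] at this


section fin

variable [Finite α]


/-- there is an element of the common base outside the `M₁`-closure of a non-`M₁`-base `B`. -/
lemma exists_notMem_closure {M₁ M₂ : Matroid α} (hE₁ : M₁.E = univ)
    {B I Bs : Set α} (hB : M₂.IsBase B) (hI : M₁.IsBasis I B) {z : α} (hz : z ∈ B \ I)
    (hs₁ : M₁.IsBase Bs) (hs₂ : M₂.IsBase Bs) :
    ∃ y ∈ Bs, y ∉ M₁.closure B := by
  by_contra hcon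
  push Not at hcon
  have h1 : Bs ⊆ M₁.closure I := by
    rw [hI.closure_eq_closure]; exact hcon
  have h2 : M₁.E ⊆ M₁.closure I := by
    rw [← hs₁.closure_eq]
    exact M₁.closure_subset_closure_of_subset_closure h1
  have h3 : M₁.IsBase I := hI.indep.isBase_of_ground_subset_closure h2
  have h4 : I.ncard = Bs.ncard := h3.ncard_eq_ncard_of_isBase hs₁
  have h5 : B.ncard = Bs.ncard := hB.ncard_eq_ncard_of_isBase hs₂
  have h6 : I ⊂ B := ⟨hI.subset, fun h => hz.2 (h hz.1)⟩
  have h7 : I.ncard < B.ncard := ncard_lt_ncard h6 (toFinite _)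
  omega

/-- One exchange step. -/
lemma step {M₁ M₂ : Matroid α} (hE₁ : M₁.E = univ)
    {B I Bs : Set α} (hB : M₂.IsBase B) (hI : M₁.IsBasis I B) {z : α} (hz : z ∈ B \ I)
    (hs₁ : M₁.IsBase Bs) (hs₂ : M₂.IsBase Bs) :
    ∃ x y, x ∈ B \ Bs ∧ y ∈ Bs \ B ∧ M₂.IsBase (insert y (B \ {x})) ∧
      ((∃ I', M₁.IsBasis I' (insert y (B \ {x})) ∧ I'.ncard = I.ncard + 1) ∨
       (x ∈ I ∧ x ∉ M₁.fundCircuit z I ∧ M₁.IsBasis (insert y (I \ {x})) (insert y (B \ {x})) ∧
         M₁.fundCircuit z (insert y (I \ {x})) = M₁.fundCircuit z I)) := by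
  obtain ⟨y, hyBs, hycl⟩ := exists_notMem_closure hE₁ hB hI hz hs₁ hs₂
  have hsub : ∀ X : Set α, X ⊆ M₁.E := fun X => hE₁ ▸ subset_univ X
  have hyB : y ∉ B := fun h => hycl (M₁.subset_closure B (hsub B) h)
  obtain ⟨x, hx, hB'⟩ := rev_exchange hB hs₂ (⟨hyBs, hyB⟩ : y ∈ Bs \ B)
  refine ⟨x, y, hx, ⟨hyBs, hyB⟩, hB', ?_⟩
  have hyE : y ∈ M₁.E := hE₁ ▸ mem_univ y
  have hxy : x ≠ y := fun h => hyB (h ▸ hx.1)
  have hBcl : B ⊆ M₁.closure I := hI.subset_closure
  -- general principle: an independent J ⊆ B \ {x} with B ⊆ closure J gives a basis insert y J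
  have key : ∀ J : Set α, M₁.Indep J → J ⊆ B \ {x} → B \ {x} ⊆ M₁.closure J →
      M₁.IsBasis (insert y J) (insert y (B \ {x})) := by
    intro J hJ hJB hBJ
    have hyJ : y ∉ M₁.closure J := fun h =>
      hycl (M₁.closure_subset_closure (hJB.trans sdiff_subset) h)
    have hyJ' : y ∉ J := fun h => hyB (hJB h).1
    have hind : M₁.Indep (insert y J) :=
      (hJ.insert_indep_iff_of_notMem hyJ').2 ⟨hyE, hyJ⟩
    refine hind.isBasis_of_subset_of_subset_closure (insert_subset_insert hJB) ?_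
    refine insert_subset (M₁.subset_closure _ (hsub _) (mem_insert _ _)) ?_
    exact hBJ.trans (M₁.closure_subset_closure (subset_insert _ _))
  by_cases hxI : x ∈ I
  · by_cases hex : ∃ b ∈ B \ I, x ∈ M₁.fundCircuit b I
    · -- defect decreases
      left
      obtain ⟨b, hb, hxb⟩ := hex
      have hbcl : b ∈ M₁.closure I := hBcl hb.1
      have hC : M₁.IsCircuit (M₁.fundCircuit b I) := hI.indep.fundCircuit_isCircuit hbcl hb.2
      have hJ : M₁.Indep (insert b I \ {x}) := (hI.indep.mem_fundCircuit_iff hbcl hb.2).1 hxb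
      have hbx : b ≠ x := fun h => hb.2 (h ▸ hxI)
      have hJB : insert b I \ {x} ⊆ B \ {x} :=
        sdiff_subset_sdiff_left (insert_subset hb.1 hI.subset)
      have hxcl : x ∈ M₁.closure (insert b I \ {x}) := by
        have h1 := hC.mem_closure_sdiff_singleton_of_mem hxb
        exact M₁.closure_subset_closure
          (sdiff_subset_sdiff_left (M₁.fundCircuit_subset_insert b I)) h1
      have hIcl : I ⊆ M₁.closure (insert b I \ {x}) := by
        intro i hi
        by_cases hix : i = x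
        · exact hix ▸ hxcl
        · exact M₁.subset_closure _ (hsub _) ⟨mem_insert_of_mem _ hi, hix⟩
      have hBJ : B \ {x} ⊆ M₁.closure (insert b I \ {x}) :=
        sdiff_subset.trans (hBcl.trans (M₁.closure_subset_closure_of_subset_closure hIcl))
      refine ⟨_, key _ hJ hJB hBJ, ?_⟩
      have hyJ' : y ∉ insert b I \ {x} := fun h => hyB (hJB h).1
      rw [ncard_insert_of_notMem hyJ' (toFinite _), ncard_sdiff_singleton_of_mem
        (mem_insert_of_mem _ hxI), ncard_insert_of_notMem hb.2 (toFinite _)]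
      simp
    · -- x is a coloop of M₁ restricted to B
      right
      push Not at hex
      have hxz : x ∉ M₁.fundCircuit z I := hex z hz
      have hJ : M₁.Indep (I \ {x}) := hI.indep.sdiff _
      have hJB : I \ {x} ⊆ B \ {x} := sdiff_subset_sdiff_left hI.subset
      have hBJ : B \ {x} ⊆ M₁.closure (I \ {x}) := by
        intro b hb
        by_cases hbI : b ∈ I
        · exact M₁.subset_closure _ (hsub _) ⟨hbI, hb.2⟩
        · have hbcl : b ∈ M₁.closure I := hBcl hb.1
          have hC : M₁.IsCircuit (M₁.fundCircuit b I) := hI.indep.fundCircuit_isCircuit hbcl hbI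
          have h1 := hC.mem_closure_sdiff_singleton_of_mem (M₁.mem_fundCircuit b I)
          refine M₁.closure_subset_closure ?_ h1
          intro i hi
          have hi' := M₁.fundCircuit_subset_insert b I hi.1
          rcases hi' with h | h
          · exact absurd h hi.2
          · exact ⟨h, fun hix => hex b ⟨hb.1, hbI⟩ (hix ▸ hi.1)⟩
      have hbas := key _ hJ hJB hBJ
      refine ⟨hxI, hxz, hbas, ?_⟩
      have hzcl : z ∈ M₁.closure I := hBcl hz.1
      have hC : M₁.IsCircuit (M₁.fundCircuit z I) := hI.indep.fundCircuit_isCircuit hzcl hz.2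
      refine (hC.eq_fundCircuit_of_subset hbas.indep ?_).symm
      intro i hi
      have hi' := M₁.fundCircuit_subset_insert z I hi
      rcases hi' with h | h
      · exact h ▸ mem_insert _ _
      · exact mem_insert_of_mem _ (mem_insert_of_mem _ ⟨h, fun hix => hxz (hix ▸ hi)⟩)
  · left
    have hJB : I ⊆ B \ {x} := fun i hi => ⟨hI.subset hi, fun h => hxI (h ▸ hi)⟩
    refine ⟨_, key I hI.indep hJB (sdiff_subset.trans hBcl), ?_⟩
    exact ncard_insert_of_notMem (fun h => hyB (hI.subset h)) (toFinite _)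



/-- sets obtained from a member of `S` by exchanging one element. -/
def Nb (S : Set (Set α)) : Set (Set α) :=
  {B | ∃ B' ∈ S, ∃ y ∈ B', ∃ x, x ∉ B' ∧ B = insert x (B' \ {y})}

/-- sets within `t` exchanges of a member of `S`. -/
def Lvl (S : Set (Set α)) : ℕ → Set (Set α)
  | 0 => S
  | t + 1 => Lvl S t ∪ Nb (Lvl S t)

lemma ncard_of_mem_Nb {S : Set (Set α)} {r : ℕ} (hS : ∀ B ∈ S, B.ncard = r) :
    ∀ B ∈ Nb S, B.ncard = r := by
  rintro B ⟨B', hB', y, hy, x, hx, rfl⟩
  have h1 : x ∉ B' \ {y} := fun h => hx h.1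
  rw [ncard_insert_of_notMem h1 (toFinite _), ncard_sdiff_singleton_of_mem hy, hS B' hB']
  have : 0 < B'.ncard := (ncard_pos (toFinite _)).2 ⟨y, hy⟩
  have h2 := hS B' hB'
  omega

lemma ncard_Nb_le {S : Set (Set α)} {r : ℕ} (hS : ∀ B ∈ S, B.ncard = r) :
    (Nb S).ncard ≤ r * (Nat.card α - r) * S.ncard := by
  classical
  have hfin : S.Finite := toFinite _
  have hsub : Nb S ⊆ ⋃ B' ∈ hfin.toFinset,
      (fun p : α × α => insert p.2 (B' \ {p.1})) '' (B' ×ˢ B'ᶜ) := by
    rintro B ⟨B', hB', y, hy, x, hx, rfl⟩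
    simp only [mem_iUnion]
    exact ⟨B', hfin.mem_toFinset.2 hB', ⟨(y, x), ⟨hy, hx⟩, rfl⟩⟩
  calc (Nb S).ncard ≤ (⋃ B' ∈ hfin.toFinset,
      (fun p : α × α => insert p.2 (B' \ {p.1})) '' (B' ×ˢ B'ᶜ)).ncard :=
        ncard_le_ncard hsub (toFinite _)
    _ ≤ ∑ B' ∈ hfin.toFinset,
      ((fun p : α × α => insert p.2 (B' \ {p.1})) '' (B' ×ˢ B'ᶜ)).ncard :=
        Finset.set_ncard_biUnion_le _ _
    _ ≤ ∑ _B' ∈ hfin.toFinset, r * (Nat.card α - r) := by
        refine Finset.sum_le_sum fun B' hB' => ?_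
        have hB'' : B' ∈ S := hfin.mem_toFinset.1 hB'
        refine (ncard_image_le (toFinite _)).trans ?_
        rw [ncard_prod, hS B' hB'', ncard_compl, hS B' hB'']
    _ = r * (Nat.card α - r) * S.ncard := by
        rw [Finset.sum_const, smul_eq_mul, mul_comm, ncard_eq_toFinset_card S hfin]

lemma ncard_of_mem_Lvl {S : Set (Set α)} {r : ℕ} (hS : ∀ B ∈ S, B.ncard = r) (t : ℕ) :
    ∀ B ∈ Lvl S t, B.ncard = r := by
  induction t with
  | zero => exact hS
  | succ t ih =>
    rintro B (hB | hB)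
    · exact ih B hB
    · exact ncard_of_mem_Nb ih B hB

lemma ncard_Lvl_le {S : Set (Set α)} {r : ℕ} (hS : ∀ B ∈ S, B.ncard = r) (t : ℕ) :
    (Lvl S t).ncard ≤ (r * (Nat.card α - r) + 1) ^ t * S.ncard := by
  induction t with
  | zero => simp [Lvl]
  | succ t ih =>
    calc (Lvl S (t + 1)).ncard ≤ (Lvl S t).ncard + (Nb (Lvl S t)).ncard := ncard_union_le _ _
      _ ≤ (Lvl S t).ncard + r * (Nat.card α - r) * (Lvl S t).ncard :=
          Nat.add_le_add_left (ncard_Nb_le (ncard_of_mem_Lvl hS t)) _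
      _ = (r * (Nat.card α - r) + 1) * (Lvl S t).ncard := by ring
      _ ≤ (r * (Nat.card α - r) + 1) * ((r * (Nat.card α - r) + 1) ^ t * S.ncard) :=
          Nat.mul_le_mul_left _ ih
      _ = (r * (Nat.card α - r) + 1) ^ (t + 1) * S.ncard := by ring

lemma Lvl_mono (S : Set (Set α)) {s t : ℕ} (h : s ≤ t) : Lvl S s ⊆ Lvl S t := by
  induction h with
  | refl => exact Subset.rfl
  | step _ ih => exact ih.trans subset_union_left

/-- step budget for defect `d` -/
def T (c : ℕ) : ℕ → ℕ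
  | 0 => 0
  | d + 1 => T c d + (c - d)

lemma T_mono (c : ℕ) {d e : ℕ} (h : d ≤ e) : T c d ≤ T c e := by
  induction h with
  | refl => exact le_rfl
  | step _ ih => exact ih.trans (Nat.le_add_right _ _)

lemma two_mul_T (c d : ℕ) (h : d ≤ c) : 2 * T c d + d * d = d * (2 * c + 1) := by
  induction d with
  | zero => simp [T]
  | succ d ih =>
    have := ih (by omega)
    obtain ⟨k, rfl⟩ : ∃ k, c = d + k := ⟨c - d, by omega⟩
    simp only [T, Nat.add_sub_cancel_left]
    nlinarith

lemma T_self (c : ℕ) : T c c = c * (c + 1) / 2 := by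
  have := two_mul_T c c le_rfl
  have h2 : 2 * T c c = c * (c + 1) := by nlinarith
  omega



/-- girth bound: coloop-candidates plus defect is at most `c`. -/
lemma W_bound {M₁ M₂ : Matroid α} {r c : ℕ}
    (hg : ∀ C, M₁.IsCircuit C → M₂.Indep C → r < C.ncard + c)
    {B I : Set α} (hB : M₂.IsBase B) (hBr : B.ncard = r) (hI : M₁.IsBasis I B) {z : α}
    (hz : z ∈ B \ I) :
    (I \ M₁.fundCircuit z I).ncard + (B \ I).ncard ≤ c := by
  have hzcl : z ∈ M₁.closure I := hI.subset_closure hz.1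
  have hC : M₁.IsCircuit (M₁.fundCircuit z I) := hI.indep.fundCircuit_isCircuit hzcl hz.2
  have h1 := hg _ hC (hB.indep.subset
    ((M₁.fundCircuit_subset_insert z I).trans (insert_subset hz.1 hI.subset)))
  have h2 : (B \ I).ncard + I.ncard = B.ncard := ncard_sdiff_add_ncard_of_subset hI.subset
  -- |C| + |W| = |I| + 1
  have h3 : M₁.fundCircuit z I ∪ (I \ M₁.fundCircuit z I) = insert z I := by
    ext i
    constructor
    · rintro (h | h)
      · exact M₁.fundCircuit_subset_insert z I h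
      · exact mem_insert_of_mem _ h.1
    · rintro (h | h)
      · exact Or.inl (h ▸ M₁.mem_fundCircuit z I)
      · by_cases hi : i ∈ M₁.fundCircuit z I
        · exact Or.inl hi
        · exact Or.inr ⟨h, hi⟩
  have h4 : (M₁.fundCircuit z I).ncard + (I \ M₁.fundCircuit z I).ncard = I.ncard + 1 := by
    rw [← ncard_union_eq disjoint_sdiff_right (toFinite _) (toFinite _), h3,
      ncard_insert_of_notMem hz.2 (toFinite _)]
  omega

lemma indep_isBase_of_ncard {M : Matroid α} {B Bs : Set α} (hB : M.Indep B) (hs : M.IsBase Bs)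
    (h : Bs.ncard ≤ B.ncard) : M.IsBase B := by
  obtain ⟨B', hB', hsub⟩ := hB.exists_isBase_superset
  have h1 : B'.ncard = Bs.ncard := hB'.ncard_eq_ncard_of_isBase hs
  have : B = B' := eq_of_subset_of_ncard_le hsub (by omega) (toFinite _)
  exact this ▸ hB'

lemma reach {M₁ M₂ : Matroid α} (hE₁ : M₁.E = univ) {r c : ℕ}
    (hg : ∀ C, M₁.IsCircuit C → M₂.Indep C → r < C.ncard + c)
    {Bs : Set α} (hs₁ : M₁.IsBase Bs) (hs₂ : M₂.IsBase Bs) (hr : Bs.ncard = r) :
    ∀ (t : ℕ) (B I : Set α) (z : α), M₂.IsBase B → M₁.IsBasis I B → z ∈ B \ I →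
      T c ((B \ I).ncard - 1) + ((I \ M₁.fundCircuit z I) \ Bs).ncard + 1 ≤ t →
      B ∈ Lvl {B | M₁.IsBase B ∧ M₂.IsBase B} t := by
  intro t
  induction t with
  | zero => intro B I z _ _ _ h; omega
  | succ t ih =>
    intro B I z hB hI hz hpot
    obtain ⟨x, y, hx, hy, hB', hcase⟩ := step hE₁ hB hI hz hs₁ hs₂
    have hBr : B.ncard = r := (hB.ncard_eq_ncard_of_isBase hs₂).trans hr
    have hB'r : (insert y (B \ {x})).ncard = r := (hB'.ncard_eq_ncard_of_isBase hs₂).trans hr
    have hback : B = insert x (insert y (B \ {x}) \ {y}) := by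
      have h1 : y ∉ B \ {x} := fun h => hy.2 h.1
      rw [insert_sdiff_self_of_notMem h1, insert_sdiff_singleton, insert_eq_of_mem hx.1]
    have hxB' : x ∉ insert y (B \ {x}) := by
      rintro (h | h)
      · exact hy.2 (h ▸ hx.1)
      · exact h.2 rfl
    suffices hmem : insert y (B \ {x}) ∈ Lvl {B | M₁.IsBase B ∧ M₂.IsBase B} t from
      Or.inr ⟨_, hmem, y, mem_insert _ _, x, hxB', hback⟩
    have hd : (B \ I).ncard + I.ncard = B.ncard := ncard_sdiff_add_ncard_of_subset hI.subset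
    have hdpos : 0 < (B \ I).ncard := (ncard_pos (toFinite _)).2 ⟨z, hz⟩
    rcases hcase with ⟨I', hI', hcard⟩ | ⟨hxI, hxz, hbas, hfc⟩
    · have hd' : (insert y (B \ {x}) \ I').ncard + I'.ncard = (insert y (B \ {x})).ncard :=
        ncard_sdiff_add_ncard_of_subset hI'.subset
      by_cases hzero : (insert y (B \ {x}) \ I').ncard = 0
      · have heq : I' = insert y (B \ {x}) :=
          eq_of_subset_of_ncard_le hI'.subset (by omega) (toFinite _)
        have hind : M₁.Indep (insert y (B \ {x})) := heq ▸ hI'.indep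
        have hbase : M₁.IsBase (insert y (B \ {x})) :=
          indep_isBase_of_ncard hind hs₁ (by omega)
        exact Lvl_mono _ (Nat.zero_le t) ⟨hbase, hB'⟩
      · obtain ⟨z', hz'⟩ := (ncard_pos (toFinite _)).1 (Nat.pos_of_ne_zero hzero)
        refine ih _ I' z' hB' hI' hz' ?_
        have hW := W_bound hg hB' hB'r hI' hz'
        have hle : ((I' \ M₁.fundCircuit z' I') \ Bs).ncard ≤ (I' \ M₁.fundCircuit z' I').ncard :=
          ncard_le_ncard sdiff_subset (toFinite _)
        obtain ⟨e, he⟩ : ∃ e, (insert y (B \ {x}) \ I').ncard = e + 1 :=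
          ⟨_, (Nat.succ_pred_eq_of_pos (Nat.pos_of_ne_zero hzero)).symm⟩
        have hde : (B \ I).ncard = e + 2 := by omega
        rw [hde] at hpot
        rw [he]
        simp only [Nat.add_sub_cancel] at hpot ⊢
        have hT : T c (e + 1) = T c e + (c - e) := rfl
        have : e + 2 - 1 = e + 1 := rfl
        rw [this] at hpot
        omega
    · have hz' : z ∈ insert y (B \ {x}) \ insert y (I \ {x}) := by
        have hzx : z ≠ x := fun h => hz.2 (h ▸ hxI)
        have hzy : z ≠ y := fun h => hy.2 (h ▸ hz.1)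
        refine ⟨mem_insert_of_mem _ ⟨hz.1, hzx⟩, ?_⟩
        rintro (h | h)
        · exact hzy h
        · exact hz.2 h.1
      refine ih _ _ z hB' hbas hz' ?_
      rw [hfc]
      -- defect unchanged
      have hdef : (insert y (B \ {x}) \ insert y (I \ {x})) = B \ I := by
        ext i
        constructor
        · rintro ⟨h1, h2⟩
          rcases h1 with h | h
          · exact absurd (h ▸ mem_insert _ _) h2
          · exact ⟨h.1, fun hi => h2 (mem_insert_of_mem _ ⟨hi, h.2⟩)⟩
        · rintro ⟨h1, h2⟩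
          have hix : i ≠ x := fun h => h2 (h ▸ hxI)
          have hiy : i ≠ y := fun h => hy.2 (h ▸ h1)
          refine ⟨mem_insert_of_mem _ ⟨h1, hix⟩, ?_⟩
          rintro (h | h)
          · exact hiy h
          · exact h2 h.1
      rw [hdef]
      have hW : ((insert y (I \ {x}) \ M₁.fundCircuit z I) \ Bs) =
          ((I \ M₁.fundCircuit z I) \ Bs) \ {x} := by
        ext i
        constructor
        · rintro ⟨⟨h1, h2⟩, h3⟩
          rcases h1 with h | h
          · exact absurd (h ▸ hy.1) h3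
          · exact ⟨⟨⟨h.1, h2⟩, h3⟩, h.2⟩
        · rintro ⟨⟨⟨h1, h2⟩, h3⟩, h4⟩
          exact ⟨⟨mem_insert_of_mem _ ⟨h1, h4⟩, h2⟩, h3⟩
      have hxW : x ∈ (I \ M₁.fundCircuit z I) \ Bs := ⟨⟨hxI, hxz⟩, hx.2⟩
      rw [hW, ncard_sdiff_singleton_of_mem hxW]
      have hpos : 0 < ((I \ M₁.fundCircuit z I) \ Bs).ncard :=
        (ncard_pos (toFinite _)).2 ⟨x, hxW⟩
      omega

theorem bases_le {M₁ M₂ : Matroid α} (hE₁ : M₁.E = univ) {r c : ℕ}
    (hg : ∀ C, M₁.IsCircuit C → M₂.Indep C → r < C.ncard + c)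
    {Bs : Set α} (hs₁ : M₁.IsBase Bs) (hs₂ : M₂.IsBase Bs) (hr : Bs.ncard = r) :
    {B | M₂.IsBase B}.ncard ≤
      (r * (Nat.card α - r) + 1) ^ (c * (c + 1) / 2) * {B | M₁.IsBase B ∧ M₂.IsBase B}.ncard := by
  have hS : ∀ B ∈ {B | M₁.IsBase B ∧ M₂.IsBase B}, B.ncard = r :=
    fun B hB => (hB.2.ncard_eq_ncard_of_isBase hs₂).trans hr
  refine le_trans (ncard_le_ncard ?_ (toFinite _)) (ncard_Lvl_le hS _)
  intro B (hB : M₂.IsBase B)
  have hBr : B.ncard = r := (hB.ncard_eq_ncard_of_isBase hs₂).trans hr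
  obtain ⟨I, hI⟩ := M₁.exists_isBasis B (hE₁ ▸ subset_univ B)
  by_cases hIB : I = B
  · have hind : M₁.Indep B := hIB ▸ hI.indep
    exact Lvl_mono _ (Nat.zero_le _) ⟨indep_isBase_of_ncard hind hs₁ (by omega), hB⟩
  · obtain ⟨z, hzB, hzI⟩ := exists_of_ssubset (hI.subset.ssubset_of_ne hIB)
    have hz : z ∈ B \ I := ⟨hzB, hzI⟩
    refine reach hE₁ hg hs₁ hs₂ hr _ B I z hB hI hz ?_
    have hW := W_bound hg hB hBr hI hz
    have hle : ((I \ M₁.fundCircuit z I) \ Bs).ncard ≤ (I \ M₁.fundCircuit z I).ncard :=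
      ncard_le_ncard sdiff_subset (toFinite _)
    have hdpos : 0 < (B \ I).ncard := (ncard_pos (toFinite _)).2 ⟨z, hz⟩
    obtain ⟨e, he⟩ : ∃ e, (B \ I).ncard = e + 1 := ⟨_, (Nat.succ_pred_eq_of_pos hdpos).symm⟩
    rw [he, Nat.add_sub_cancel, ← T_self]
    have hT : T c (e + 1) = T c e + (c - e) := rfl
    have hmono : T c (e + 1) ≤ T c c := T_mono c (by omega)
    omega



/-- the uniform matroid of rank `r` on a finite type -/
def unif (α : Type*) [Finite α] (r : ℕ) : Matroid α :=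
  (IndepMatroid.ofFinite (E := (univ : Set α)) (toFinite _) (fun I => I.ncard ≤ r)
    (by simp)
    (fun I J hJ hIJ => (ncard_le_ncard hIJ (toFinite _)).trans hJ)
    (by
      intro I J _ hJ hIJ
      obtain ⟨e, heJ, heI⟩ := exists_mem_notMem_of_ncard_lt_ncard hIJ (toFinite _)
      refine ⟨e, heJ, heI, ?_⟩
      rw [ncard_insert_of_notMem heI (toFinite _)]
      omega)
    (fun I _ => subset_univ I)).matroid

lemma unif_indep_iff {r : ℕ} {I : Set α} : (unif α r).Indep I ↔ I.ncard ≤ r := by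
  simp [unif]

lemma unif_E {r : ℕ} : (unif α r).E = univ := rfl

lemma unif_isBase_iff {r : ℕ} (hr : r ≤ Nat.card α) {B : Set α} :
    (unif α r).IsBase B ↔ B.ncard = r := by
  constructor
  · intro hB
    have h1 : B.ncard ≤ r := unif_indep_iff.1 hB.indep
    by_contra hne
    have hlt : B.ncard < r := lt_of_le_of_ne h1 hne
    have hlt' : B.ncard < (univ : Set α).ncard := by rw [ncard_univ]; omega
    obtain ⟨e, _, heB⟩ := exists_mem_notMem_of_ncard_lt_ncard hlt' (toFinite _)
    have hind : (unif α r).Indep (insert e B) := by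
      rw [unif_indep_iff, ncard_insert_of_notMem heB (toFinite _)]; omega
    exact heB (hB.mem_of_insert_indep hind)
  · intro hB
    have hind : (unif α r).Indep B := unif_indep_iff.2 hB.le
    refine hind.isBase_of_maximal fun J hJ hBJ => ?_
    exact eq_of_subset_of_ncard_le hBJ (by rw [hB]; exact unif_indep_iff.1 hJ) (toFinite _)

/-- a matroid of rank `r` all of whose circuits have more than `r - c` elements has many bases -/
theorem choose_le {M : Matroid α} (hE : M.E = univ) {r c : ℕ}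
    (hg : ∀ C, M.IsCircuit C → r < C.ncard + c)
    {Bs : Set α} (hs : M.IsBase Bs) (hr : Bs.ncard = r) :
    {B : Set α | B.ncard = r}.ncard ≤
      (r * (Nat.card α - r) + 1) ^ (c * (c + 1) / 2) * {B | M.IsBase B}.ncard := by
  have hrn : r ≤ Nat.card α := by
    rw [← hr, ← ncard_univ]; exact ncard_le_ncard (subset_univ _) (toFinite _)
  have h := bases_le (M₁ := M) (M₂ := unif α r) hE (fun C hC _ => hg C hC) hs
    ((unif_isBase_iff hrn).2 hr) hr
  have e1 : {B | (unif α r).IsBase B} = {B : Set α | B.ncard = r} := by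
    ext B; exact unif_isBase_iff hrn
  have e2 : {B | M.IsBase B ∧ (unif α r).IsBase B} = {B | M.IsBase B} := by
    ext B
    constructor
    · exact fun h => h.1
    · exact fun h => ⟨h, (unif_isBase_iff hrn).2 ((h.ncard_eq_ncard_of_isBase hs).trans hr)⟩
  rwa [e1, e2] at h


end fin

end Vale.Agent.Lib.P317
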