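import Mathlib

namespace Vale.Agent.Lib.P317

open MeasureTheory ProbabilityTheory
open scoped ENNReal NNReal

/-- One-sided Hoeffding bound in counting form. -/
lemma hoeffding_count_aux {S : Type*} [Fintype S] [Nonempty S] (f : S → ℝ)
    (hf : ∀ s, f s ∈ Set.Icc (0 : ℝ) 1) (m : ℕ) (t : ℝ) (ht : 0 ≤ t) :
    (Nat.card {ω : Fin m → S // t ≤ ∑ i, (f (ω i) - (∑ s, f s) / Fintype.card S)} : ℝ) ≤
      Real.exp (-2 * t ^ 2 / m) * (Fintype.card S : ℝ) ^ m := by
  classical
  let _ : MeasurableSpace S := ⊤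
  have _ : DiscreteMeasurableSpace S := ⟨fun _ => trivial⟩
  set μ₀ : Measure S := uniformOn Set.univ with hμ₀
  set μ : Measure (Fin m → S) := Measure.pi (fun _ => μ₀) with hμ
  set p : ℝ := (∑ s, f s) / Fintype.card S with hp
  have hcard : (0 : ℝ) < Fintype.card S := by exact_mod_cast Fintype.card_pos
  -- singletons
  have hsing₀ : ∀ s : S, μ₀ {s} = (Fintype.card S : ℝ≥0∞)⁻¹ := by
    intro s
    rw [hμ₀, uniformOn_univ, Measure.count_singleton, one_div]
  have hint₀ : ∫ s, f s ∂μ₀ = p := by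
    rw [integral_fintype (Integrable.of_finite), hp, Finset.sum_div]
    refine Finset.sum_congr rfl fun s _ => ?_
    rw [Measure.real, hsing₀ s]
    simp [div_eq_inv_mul]
  have hindep : iIndepFun (fun (i : Fin m) (ω : Fin m → S) => f (ω i) - p) μ :=
    iIndepFun_pi (X := fun _ s => f s - p) (fun _ => (Measurable.of_discrete).aemeasurable)
  have hsub : ∀ i ∈ (Finset.univ : Finset (Fin m)),
      HasSubgaussianMGF (fun ω : Fin m → S => f (ω i) - p) ((‖(1 : ℝ) - 0‖₊ / 2) ^ 2) μ := by
    intro i _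
    have h1 : ∫ ω, f (ω i) ∂μ = p := by
      rw [hμ, integral_comp_eval (μ := fun _ : Fin m => μ₀) (i := i) (f := f)
        (Measurable.of_discrete).aestronglyMeasurable, hint₀]
    have h2 := hasSubgaussianMGF_of_mem_Icc (μ := μ) (X := fun ω : Fin m → S => f (ω i))
      (a := 0) (b := 1) (Measurable.of_discrete).aemeasurable
      (Filter.Eventually.of_forall fun ω => hf (ω i))
    rwa [h1] at h2
  have hH := HasSubgaussianMGF.measure_sum_ge_le_of_iIndepFun hindep hsub ht
  -- measure of a set is card / card^m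
  have hsing : ∀ ω : Fin m → S, μ {ω} = ((Fintype.card S : ℝ≥0∞)⁻¹) ^ m := by
    intro ω
    rw [hμ, Measure.pi_singleton]
    simp [hsing₀]
  have hmeas : ∀ A : Finset (Fin m → S), μ.real (A : Set (Fin m → S)) =
      (A.card : ℝ) / (Fintype.card S : ℝ) ^ m := by
    intro A
    rw [Measure.real, ← sum_measure_singleton (μ := μ)]
    simp only [hsing, Finset.sum_const, nsmul_eq_mul]
    rw [ENNReal.toReal_mul, ENNReal.toReal_pow, ENNReal.toReal_inv]
    simp [div_eq_mul_inv]
  set A : Finset (Fin m → S) := Finset.univ.filter (fun ω => t ≤ ∑ i, (f (ω i) - p)) with hA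
  have hAset : (A : Set (Fin m → S)) = {ω | t ≤ ∑ i, (f (ω i) - p)} := by
    ext ω; simp [hA]
  rw [← hAset, hmeas A] at hH
  have hcardA : (Nat.card {ω : Fin m → S // t ≤ ∑ i, (f (ω i) - p)} : ℝ) = A.card := by
    rw [Nat.card_eq_fintype_card, Fintype.card_subtype]
  rw [hcardA]
  have hpow : (0 : ℝ) < (Fintype.card S : ℝ) ^ m := pow_pos hcard m
  rw [div_le_iff₀ hpow] at hH
  refine hH.trans (le_of_eq ?_)
  congr 2
  simp only [Finset.sum_const, Finset.card_univ, Fintype.card_fin, sub_zero, nnnorm_one]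
  push_cast
  by_cases hm : m = 0
  · simp [hm]
  · have : (m : ℝ) ≠ 0 := by exact_mod_cast hm
    field_simp
    ring

end Vale.Agent.Lib.P317
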