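import Mathlib
import Vale.Agent.Lib.P317.Hoeffding

namespace Vale.Agent.Lib.P317

open scoped Classical in
/-- Monte Carlo estimation of the size of a subset of density at least `1 / Q` (or empty),
in counting form. -/
theorem mc_relative {S : Type*} [Fintype S] [Nonempty S] (A : S → Prop) (Q : ℝ) (hQ : 0 < Q)
    (hA : Nat.card {s // A s} = 0 ∨ (Fintype.card S : ℝ) ≤ Q * Nat.card {s // A s})
    (ε δ : ℝ) (hε : 0 < ε) (hδ : 0 < δ) (hδ1 : δ < 1) (m : ℕ)
    (hm : Q ^ 2 * Real.log (2 / δ) / (2 * ε ^ 2) ≤ m) :
    (1 - δ) * (Fintype.card S : ℝ) ^ m ≤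
      Nat.card {ω : Fin m → S //
        |(Fintype.card S : ℝ) * (Nat.card {i : Fin m // A (ω i)}) / m - Nat.card {s // A s}| ≤
          ε * Nat.card {s // A s}} := by
  set a : ℕ := Nat.card {s // A s} with ha
  set N : ℝ := (Fintype.card S : ℝ) with hN
  have hNpos : 0 < N := by rw [hN]; exact_mod_cast Fintype.card_pos
  have hpow : 0 < N ^ m := pow_pos hNpos m
  have htot : (Nat.card (Fin m → S) : ℝ) = N ^ m := by
    rw [Nat.card_eq_fintype_card, Fintype.card_fun, Fintype.card_fin]; push_cast; rfl
  rcases hA with h0 | hA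
  · -- no good element at all
    have hnone : ∀ s, ¬ A s := by
      intro s hs
      have : IsEmpty {s // A s} := by
        rcases (Nat.card_eq_zero.1 h0) with h | h
        · exact h
        · exact absurd (inferInstance : Finite {s // A s}) (not_finite_iff_infinite.2 h)
      exact this.false ⟨s, hs⟩
    have hall : ∀ ω : Fin m → S,
        |N * (Nat.card {i : Fin m // A (ω i)}) / m - (a : ℝ)| ≤ ε * a := by
      intro ω
      have : Nat.card {i : Fin m // A (ω i)} = 0 := by
        rw [Nat.card_eq_zero]; left; exact ⟨fun i => hnone _ i.2⟩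
      rw [this, h0]; simp
    have hcard : (Nat.card {ω : Fin m → S //
        |N * (Nat.card {i : Fin m // A (ω i)}) / m - (a : ℝ)| ≤ ε * a} : ℝ) = N ^ m := by
      rw [← htot]
      congr 1
      exact Nat.card_congr (Equiv.subtypeUnivEquiv hall)
    rw [hcard]
    nlinarith
  · have hapos : (0 : ℝ) < a := by
      by_contra hcon
      have : (a : ℝ) = 0 := le_antisymm (not_lt.1 hcon) (Nat.cast_nonneg _)
      rw [this] at hA; linarith
    have hlog : 0 < Real.log (2 / δ) := Real.log_pos (by rw [lt_div_iff₀ hδ]; linarith)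
    have hmpos : (0 : ℝ) < m := by
      refine lt_of_lt_of_le ?_ hm
      positivity
    set p : ℝ := a / N with hp
    have hppos : 0 < p := div_pos hapos hNpos
    have hpQ : 1 ≤ Q * p := by
      rw [hp, ← mul_div_assoc, le_div_iff₀ hNpos]; linarith
    set f : S → ℝ := fun s => if A s then 1 else 0 with hf
    have hsumf : ∑ s, f s = a := by
      rw [hf, Finset.sum_boole, ha, Nat.card_eq_fintype_card, Fintype.card_subtype]
    have hhits : ∀ ω : Fin m → S, ∑ i, f (ω i) = Nat.card {i : Fin m // A (ω i)} := by
      intro ω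
      rw [hf, Finset.sum_boole, Nat.card_eq_fintype_card, Fintype.card_subtype]
    set t : ℝ := m * ε * p with ht
    have htpos : 0 ≤ t := by positivity
    have h1 := hoeffding_count_aux f (fun s => by
      simp only [hf]; split_ifs <;> simp) m t htpos
    have h2 := hoeffding_count_aux (fun s => 1 - f s) (fun s => by
      simp only [hf]; split_ifs <;> simp) m t htpos
    rw [hsumf] at h1
    have hsumg : ∑ s, (1 - f s) = N - a := by
      rw [Finset.sum_sub_distrib, hsumf]; simp [hN]
    rw [hsumg] at h2
    -- the exponential bound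
    have hexp : 2 * Real.exp (-2 * t ^ 2 / m) ≤ δ := by
      have h3 : Real.log (2 / δ) ≤ 2 * t ^ 2 / m := by
        have h4 : Q ^ 2 * Real.log (2 / δ) ≤ m * (2 * ε ^ 2) := by
          rwa [div_le_iff₀ (by positivity)] at hm
        have h5 : 2 * t ^ 2 / m = m * (2 * ε ^ 2) * p ^ 2 := by
          rw [ht]; field_simp
        rw [h5]
        have h6 : Real.log (2 / δ) ≤ Q ^ 2 * Real.log (2 / δ) * p ^ 2 := by
          have : 1 ≤ (Q * p) ^ 2 := one_le_pow₀ hpQ
          calc Real.log (2 / δ) = 1 * Real.log (2 / δ) := (one_mul _).symm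
            _ ≤ (Q * p) ^ 2 * Real.log (2 / δ) := by gcongr
            _ = Q ^ 2 * Real.log (2 / δ) * p ^ 2 := by ring
        exact h6.trans (by gcongr)
      have h7 : Real.exp (-2 * t ^ 2 / m) ≤ δ / 2 := by
        have : -2 * t ^ 2 / m ≤ Real.log (δ / 2) := by
          have h8 : Real.log (δ / 2) = - Real.log (2 / δ) := by
            rw [← Real.log_inv, inv_div]
          rw [h8]
          have : -2 * t ^ 2 / m = -(2 * t ^ 2 / m) := by ring
          rw [this]; linarith
        calc Real.exp (-2 * t ^ 2 / m) ≤ Real.exp (Real.log (δ / 2)) := Real.exp_le_exp.2 this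
          _ = δ / 2 := Real.exp_log (by positivity)
      linarith
    -- complement counting
    set good : (Fin m → S) → Prop := fun ω =>
      |N * (Nat.card {i : Fin m // A (ω i)}) / m - (a : ℝ)| ≤ ε * a with hgood
    set bad1 : (Fin m → S) → Prop := fun ω => t ≤ ∑ i, (f (ω i) - a / N) with hbad1
    set bad2 : (Fin m → S) → Prop := fun ω => t ≤ ∑ i, ((1 - f (ω i)) - (N - a) / N) with hbad2
    have hcover : ∀ ω, good ω ∨ bad1 ω ∨ bad2 ω := by
      intro ω
      by_contra hcon
      push Not at hcon
      obtain ⟨hg, hb1, hb2⟩ := hcon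
      simp only [hbad1, hbad2, hgood] at hg hb1 hb2
      rw [Finset.sum_sub_distrib, hhits ω] at hb1
      have hb2' : ∑ i : Fin m, ((1 - f (ω i)) - (N - a) / N) =
          -((Nat.card {i : Fin m // A (ω i)} : ℝ) - m * (a / N)) := by
        have : ∀ i : Fin m, (1 - f (ω i)) - (N - a) / N = a / N - f (ω i) := by
          intro i; field_simp; ring
        rw [Finset.sum_congr rfl (fun i _ => this i), Finset.sum_sub_distrib, hhits ω]
        simp
      rw [hb2'] at hb2
      simp only [Finset.sum_const, Finset.card_univ, Fintype.card_fin, nsmul_eq_mul] at hb1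
      apply hg
      set h : ℝ := (Nat.card {i : Fin m // A (ω i)} : ℝ)
      have e1 : N * h / m - a = (N / m) * (h - m * (a / N)) := by field_simp
      have e2 : ε * a = (N / m) * t := by rw [ht, hp]; field_simp
      rw [e1, e2, abs_mul, abs_of_pos (div_pos hNpos hmpos)]
      refine mul_le_mul_of_nonneg_left ?_ (div_pos hNpos hmpos).le
      rw [abs_le]; constructor <;> linarith
    have hcount : (Nat.card (Fin m → S) : ℝ) ≤ Nat.card {ω // good ω} + Nat.card {ω // bad1 ω} +
        Nat.card {ω // bad2 ω} := by
      simp only [Nat.card_eq_fintype_card, Fintype.card_subtype]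
      have : (Finset.univ : Finset (Fin m → S)) ⊆ Finset.univ.filter good ∪
          Finset.univ.filter bad1 ∪ Finset.univ.filter bad2 := by
        intro ω _
        simp only [Finset.mem_union, Finset.mem_filter, Finset.mem_univ, true_and]
        rcases hcover ω with h | h | h
        · exact Or.inl (Or.inl h)
        · exact Or.inl (Or.inr h)
        · exact Or.inr h
      have h3 := Finset.card_le_card this
      have h4 := Finset.card_union_le (Finset.univ.filter good ∪ Finset.univ.filter bad1)
        (Finset.univ.filter bad2)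
      have h5 := Finset.card_union_le (Finset.univ.filter good) (Finset.univ.filter bad1)
      rw [Finset.card_univ] at h3
      exact_mod_cast (h3.trans (h4.trans (Nat.add_le_add_right h5 _)))
    rw [htot] at hcount
    have : 2 * Real.exp (-2 * t ^ 2 / m) * N ^ m ≤ δ * N ^ m := by gcongr
    linarith

end Vale.Agent.Lib.P317
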